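import Crest.Agent.Helper68.S0076.Defs

/-!
# S0076 log-spread squad, leaf INJ (helper48): elementary facts about `inj`, `stab`, `hits`

Statements are exactly those of `Crest/Agent/Helper68/S0076/Blueprint.lean` (leaf INJ).
-/

set_option autoImplicit false
set_option linter.unusedSectionVars false

namespace Crest.Agent.Helper48.S0076

open Finset Crest.Agent.Helper68.S0076
open scoped Pointwise

variable {G : Type*} {X : Type*} [Group G] [Fintype G] [Fintype X] [DecidableEq X] [MulAction G X]

theorem inj_empty (B : Finset X) : inj G (∅ : Finset X) B = Fintype.card G := by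
  classical
  unfold inj
  rw [Finset.filter_true_of_mem, Finset.card_univ]
  intro g _
  rw [Finset.smul_finset_empty]
  exact Finset.empty_subset _

/-- translating the pattern does not change the count -/
theorem inj_smul (S B : Finset X) (g : G) : inj G (g • S) B = inj G S B := by
  classical
  unfold inj
  refine Finset.card_bij (fun h _ => h * g) ?_ ?_ ?_
  · intro h hh
    rw [Finset.mem_filter] at hh ⊢
    refine ⟨Finset.mem_univ _, ?_⟩
    rw [mul_smul]
    exact hh.2
  · intro a _ b _ hab
    exact mul_right_cancel hab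
  · intro b hb
    rw [Finset.mem_filter] at hb
    refine ⟨b * g⁻¹, ?_, ?_⟩
    · rw [Finset.mem_filter]
      refine ⟨Finset.mem_univ _, ?_⟩
      rw [← mul_smul, inv_mul_cancel_right]
      exact hb.2
    · exact inv_mul_cancel_right b g

theorem card_filter_subset_smul (T H₀ : Finset X) :
    (Finset.univ.filter (fun g : G => T ⊆ g • H₀)).card = inj G T H₀ := by
  classical
  unfold inj
  refine Finset.card_bij (fun h _ => h⁻¹) ?_ ?_ ?_
  · intro h hh
    rw [Finset.mem_filter] at hh ⊢
    refine ⟨Finset.mem_univ _, ?_⟩
    exact Finset.subset_smul_finset_iff.1 hh.2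
  · intro a _ b _ hab
    exact inv_injective hab
  · intro b hb
    rw [Finset.mem_filter] at hb
    refine ⟨b⁻¹, ?_, inv_inv b⟩
    rw [Finset.mem_filter]
    refine ⟨Finset.mem_univ _, ?_⟩
    rw [Finset.subset_smul_finset_iff, inv_inv]
    exact hb.2

theorem inj_erase (Z B : Finset X) (x : X) (hx : x ∈ B) :
    inj G Z (B.erase x) + hits G Z B x = inj G Z B := by
  classical
  unfold inj hits
  have h1 : (Finset.univ.filter (fun g : G => g • Z ⊆ B.erase x))
      = (Finset.univ.filter (fun g : G => g • Z ⊆ B)).filter (fun g : G => ¬ x ∈ g • Z) := by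
    ext g
    simp only [Finset.mem_filter, Finset.mem_univ, true_and]
    constructor
    · intro h
      refine ⟨h.trans (Finset.erase_subset _ _), fun hxg => ?_⟩
      exact (Finset.notMem_erase x B) (h hxg)
    · rintro ⟨h, hxg⟩ y hy
      rw [Finset.mem_erase]
      exact ⟨fun hyx => hxg (hyx ▸ hy), h hy⟩
  have h2 : (Finset.univ.filter (fun g : G => g • Z ⊆ B ∧ x ∈ g • Z))
      = (Finset.univ.filter (fun g : G => g • Z ⊆ B)).filter (fun g : G => x ∈ g • Z) := by
    rw [Finset.filter_filter]
  rw [h1, h2, add_comm]
  exact Finset.card_filter_add_card_filter_not (s := Finset.univ.filter (fun g : G => g • Z ⊆ B))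
    (fun g : G => x ∈ g • Z)

theorem inj_mono (S B B' : Finset X) (h : B ⊆ B') : inj G S B ≤ inj G S B' := by
  classical
  unfold inj
  apply Finset.card_le_card
  intro g hg
  rw [Finset.mem_filter] at hg ⊢
  exact ⟨hg.1, hg.2.trans h⟩

theorem inj_eq_zero_of_card_lt (S B : Finset X) (h : B.card < S.card) : inj G S B = 0 := by
  classical
  unfold inj
  rw [Finset.card_eq_zero, Finset.filter_eq_empty_iff]
  intro g _ hsub
  have h1 := Finset.card_le_card hsub
  rw [Finset.card_smul_finset] at h1
  omega

theorem inj_le_stab_mul (Z B : Finset X) : inj G Z B ≤ stab G Z * 2 ^ B.card := by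
  classical
  unfold inj
  set s : Finset G := Finset.univ.filter (fun g : G => g • Z ⊆ B) with hs
  have hfib : ∀ A ∈ s.image (fun g : G => g • Z),
      (s.filter (fun g : G => g • Z = A)).card ≤ stab G Z := by
    intro A hA
    obtain ⟨g₀, -, rfl⟩ := Finset.mem_image.1 hA
    unfold stab
    refine Finset.card_le_card_of_injOn (fun g => g₀⁻¹ * g) ?_ ?_
    · intro g hg
      have hg' := (Finset.mem_filter.1 (Finset.mem_coe.1 hg)).2
      rw [Finset.mem_coe, Finset.mem_filter]
      refine ⟨Finset.mem_univ _, ?_⟩
      rw [mul_smul, hg', inv_smul_smul]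
    · intro a _ b _ hab
      exact mul_left_cancel hab
  have h1 := Finset.card_le_mul_card_image (f := fun g : G => g • Z) s (stab G Z) hfib
  have h2 : (s.image (fun g : G => g • Z)).card ≤ 2 ^ B.card := by
    rw [← Finset.card_powerset]
    apply Finset.card_le_card
    intro A hA
    obtain ⟨g, hg, rfl⟩ := Finset.mem_image.1 hA
    rw [Finset.mem_powerset]
    exact (Finset.mem_filter.1 hg).2
  exact h1.trans (Nat.mul_le_mul_left _ h2)

theorem stab_pos (A : Finset X) : 0 < stab G A := by
  classical
  unfold stab
  apply Finset.card_pos.2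
  exact ⟨1, by rw [Finset.mem_filter]; exact ⟨Finset.mem_univ _, one_smul G A⟩⟩

end Crest.Agent.Helper48.S0076
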