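import Crest.Agent.Helper68.S0076.Defs

/-!
# S0076 log-spread squad, leaf ST (helper48): every set is `g • B` for at most `stab B` elements

Statement exactly as in `Crest/Agent/Helper68/S0076/Blueprint.lean` (leaf ST).
-/

set_option autoImplicit false
set_option linter.unusedSectionVars false

namespace Crest.Agent.Helper48.S0076

open Finset Crest.Agent.Helper68.S0076
open scoped Pointwise

variable {G : Type*} {X : Type*} [Group G] [Fintype G] [Fintype X] [DecidableEq X] [MulAction G X]

/-- The fibre of `g ↦ g • B` over any set has at most `stab B` elements. -/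
theorem card_fibre_le_stab (B U : Finset X) :
    (Finset.univ.filter (fun g : G => g • B = U)).card ≤ stab G B := by
  classical
  by_cases hne : (Finset.univ.filter (fun g : G => g • B = U)).Nonempty
  · obtain ⟨g₀, hg₀⟩ := hne
    have hg₀' : g₀ • B = U := (Finset.mem_filter.1 hg₀).2
    unfold stab
    refine Finset.card_le_card_of_injOn (fun g => g₀⁻¹ * g) ?_ ?_
    · intro g hg
      have hg' : g • B = U := (Finset.mem_filter.1 (Finset.mem_coe.1 hg)).2
      rw [Finset.mem_coe, Finset.mem_filter]
      refine ⟨Finset.mem_univ _, ?_⟩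
      rw [mul_smul, hg', ← hg₀', inv_smul_smul]
    · intro a _ b _ hab
      exact mul_left_cancel hab
  · rw [Finset.not_nonempty_iff_eq_empty] at hne
    rw [hne, Finset.card_empty]
    exact Nat.zero_le _

theorem stab_count (B : Finset X) (f : Finset X → ℝ) (hf : ∀ U ∈ goodSet G B, 0 ≤ f U) :
    ∑ g : G, f (g • B) ≤ (stab G B : ℝ) * ∑ U ∈ goodSet G B, f U := by
  classical
  have hmaps : ∀ g ∈ (Finset.univ : Finset G), g • B ∈ goodSet G B :=
    fun g _ => (mem_goodSet G B _).2 ⟨g, subset_rfl⟩
  rw [← Finset.sum_fiberwise_of_maps_to hmaps (fun g => f (g • B)), Finset.mul_sum]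
  apply Finset.sum_le_sum
  intro U hU
  have h1 : ∑ g ∈ Finset.univ.filter (fun g : G => g • B = U), f (g • B)
      = ((Finset.univ.filter (fun g : G => g • B = U)).card : ℝ) * f U := by
    rw [Finset.sum_congr rfl (fun g hg => by rw [(Finset.mem_filter.1 hg).2] :
      ∀ g ∈ Finset.univ.filter (fun g : G => g • B = U), f (g • B) = f U)]
    rw [Finset.sum_const, nsmul_eq_mul]
  rw [h1]
  exact mul_le_mul_of_nonneg_right (by exact_mod_cast card_fibre_le_stab (G := G) B U) (hf U hU)

end Crest.Agent.Helper48.S0076
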